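import Vale.Agent.P154.R4W.CTTPos
import Vale.Agent.P154.TTH.Data
import Vale.Agent.P154.TTH.Chk2

/-! # P154 q = 4: packed coefficient check for the closure certificate on `T × T`, rows 16 to 17 -/

namespace Vale.Agent.P154.TTH

open Vale.Agent.Util.Polya

theorem check_4 : check 168 16 15 (certE 15 0 1 0 1 Ld [Xps, XcTT, Xals] [XcTT, Xps, Xalt]) 16 2 = true := by
  decide +kernel

end Vale.Agent.P154.TTH
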