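import Vale.Agent.P154.TTH.Chk0
import Vale.Agent.P154.TTH.Chk1
import Vale.Agent.P154.TTH.Chk2
import Vale.Agent.P154.TTH.Chk3
import Vale.Agent.P154.TTH.Chk4
import Vale.Agent.P154.TTH.Chk5
import Vale.Agent.P154.TTH.Chk6
import Vale.Agent.P154.TTH.Chk7
import Vale.Agent.P154.TTH.Chk8
import Vale.Agent.P154.TTH.Chk9
import Vale.Agent.P154.TTH.Chk10
import Vale.Agent.P154.TTH.Chk11
import Vale.Agent.P154.TTH.Chk12
import Vale.Agent.P154.TTH.Chk13
import Vale.Agent.P154.TTH.Chk14
import Vale.Agent.P154.TTH.Chk15
import Vale.Agent.P154.TTH.Chk16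
import Vale.Agent.P154.TTH.Chk17
import Vale.Agent.P154.TTH.Chk18
import Vale.Agent.P154.TTH.Chk19
import Vale.Agent.P154.TTH.Chk20
import Vale.Agent.P154.TTH.Chk21
import Vale.Agent.P154.TTH.Chk22

/-! # P154 q = 4: the packed coefficient checks for the closure certificate on `T × T` -/

namespace Vale.Agent.P154.TTH

open Vale.Agent.Util.Polya

theorem goodT : good 15 15 168 (certE 15 0 1 0 1 Ld [Xps, XcTT, Xals] [XcTT, Xps, Xalt]) = true := by
  decide +kernel

theorem bndT : 2 * bnd (certE 15 0 1 0 1 Ld [Xps, XcTT, Xals] [XcTT, Xps, Xalt]) < 2 ^ 168 := by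
  decide +kernel

theorem check_glueT {w S D : ℕ} {L : List (PE × PE)} (r0 n m r1 t : ℕ) (e1 : r0 + n = r1) (e2 : n + m = t)
    (h1 : check w S D L r0 n = true) (h2 : check w S D L r1 m = true) : check w S D L r0 t = true := by
  subst e1
  subst e2
  exact check_append h1 h2

theorem checkT : check 168 16 15 (certE 15 0 1 0 1 Ld [Xps, XcTT, Xals] [XcTT, Xps, Xalt]) 0 (16 * 16) = true := by
  have h0 := check_0
  have h1 := check_glueT 0 2 3 2 5 (by norm_num) (by norm_num) h0 check_1
  have h2 := check_glueT 0 5 4 5 9 (by norm_num) (by norm_num) h1 check_2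
  have h3 := check_glueT 0 9 7 9 16 (by norm_num) (by norm_num) h2 check_3
  have h4 := check_glueT 0 16 2 16 18 (by norm_num) (by norm_num) h3 check_4
  have h5 := check_glueT 0 18 3 18 21 (by norm_num) (by norm_num) h4 check_5
  have h6 := check_glueT 0 21 5 21 26 (by norm_num) (by norm_num) h5 check_6
  have h7 := check_glueT 0 26 7 26 33 (by norm_num) (by norm_num) h6 check_7
  have h8 := check_glueT 0 33 3 33 36 (by norm_num) (by norm_num) h7 check_8
  have h9 := check_glueT 0 36 5 36 41 (by norm_num) (by norm_num) h8 check_9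
  have h10 := check_glueT 0 41 9 41 50 (by norm_num) (by norm_num) h9 check_10
  have h11 := check_glueT 0 50 4 50 54 (by norm_num) (by norm_num) h10 check_11
  have h12 := check_glueT 0 54 11 54 65 (by norm_num) (by norm_num) h11 check_12
  have h13 := check_glueT 0 65 4 65 69 (by norm_num) (by norm_num) h12 check_13
  have h14 := check_glueT 0 69 12 69 81 (by norm_num) (by norm_num) h13 check_14
  have h15 := check_glueT 0 81 5 81 86 (by norm_num) (by norm_num) h14 check_15
  have h16 := check_glueT 0 86 12 86 98 (by norm_num) (by norm_num) h15 check_16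
  have h17 := check_glueT 0 98 14 98 112 (by norm_num) (by norm_num) h16 check_17
  have h18 := check_glueT 0 112 6 112 118 (by norm_num) (by norm_num) h17 check_18
  have h19 := check_glueT 0 118 16 118 134 (by norm_num) (by norm_num) h18 check_19
  have h20 := check_glueT 0 134 27 134 161 (by norm_num) (by norm_num) h19 check_20
  have h21 := check_glueT 0 161 47 161 208 (by norm_num) (by norm_num) h20 check_21
  have h22 := check_glueT 0 208 48 208 256 (by norm_num) (by norm_num) h21 check_22
  exact h22

end Vale.Agent.P154.TTH
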