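import Vale.Agent.P154.R4W.CTTPos
import Vale.Agent.P154.TTH.Data

/-! # P154 q = 4: the term lists of the closure certificate on `T × T` are the closed forms -/

namespace Vale.Agent.P154.TTH

open Vale.Agent.Util.Polya

def L1i : List ℤ := [1000000000000, -1000000000000, 1000000000000, -1000000000000, 983516607383, -999599806208, 943652943905, -665830048686, 308652745943, -87311689421, 13606875487, -893513295]

def L2i : List ℤ := [1000000000000, -2000000000000, 3000000000000, -4000000000000, 4870821259645, -5589163196464, 7676743145505, -11323485934915, 10597423332823, -5339268311623, 1342872734328, -132918056279]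

def L3i : List ℤ := [1000000000000, -3000000000000, 5934353468467, -9212777855744, 10775217228764, -8772053008753, 4693674008075, -1567298612951, 295757142886, -21374806241, -1909931865, 345468459]

def L4i : List ℤ := [1000000000000, -4000000000000, 9542188921349, -15053406411607, 13676935553950, -5577626652622, -96757749103, 542154300564, 120063409958, -129350309835, 20698206602]

theorem pitLd : pit4 300 17 (smE 15 Ld (.mul (.c 4) (.v 0)) (.mul (.c 4) (.v 1)) (.mul (.c 4) (.v 2))
    (.mul (.c 4) (.v 3)) (.c 16)) (lbS5E (-233466604682886512640000000000000) 108951082185347039232 3735465674926184202240 259407338536540569600 435804328741388156928 L1i L2i L3i L4i) = true := by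
  decide +kernel

theorem pitXps : pit4 110 8 (smE 15 Xps (.mul (.c 1) (.add (.c 1) (.v 0))) (.mul (.c 1) (.add (.c 1) (.v 1))) (.mul (.c 1) (.add (.c 1) (.v 2))) (.mul (.c 1) (.add (.c 1) (.v 3)))
    (.c 4)) (mulE9 (0) (0) (-150994944000000000) (28940697600000000) (0) (-4404019200000000) (0) (0) (0)) = true := by
  decide +kernel

theorem pitXals : pit4 110 8 (smE 15 Xals (.mul (.c 1) (.add (.c 1) (.v 0))) (.mul (.c 1) (.add (.c 1) (.v 1))) (.mul (.c 1) (.add (.c 1) (.v 2))) (.mul (.c 1) (.add (.c 1) (.v 3)))
    (.c 4)) (mulE9 (0) (-60397977600000000000) (0) (0) (0) (0) (0) (0) (0)) = true := by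
  decide +kernel

theorem pitXalt : pit4 110 8 (smE 15 Xalt (.mul (.c 1) (.add (.c 1) (.v 0))) (.mul (.c 1) (.add (.c 1) (.v 1))) (.mul (.c 1) (.add (.c 1) (.v 2))) (.mul (.c 1) (.add (.c 1) (.v 3)))
    (.c 4)) (mulE9 (0) (6442450944) (0) (0) (0) (0) (0) (0) (0)) = true := by
  decide +kernel

end Vale.Agent.P154.TTH
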