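import Vale.Agent.P154.TTH.Chk
import Vale.Agent.P154.TTH.Link
import Vale.Agent.P154.T4M.MinB

/-!
# P154 q = 4: the closure inequality on `T × T` for the class function `ps5 (23/10) (7/10)`

`keyC`: `cTT b * ps a + cTT a * ps b ≤ avQ (KQ ps a) b` for `a, b ∈ DT 1`, `b > -1`, `ps = ps5 (23/10) (7/10)`.
-/

namespace Vale.Agent.P154.TTH

open Finset Vale.Agent.Util.Polya

theorem masterTT (w S D : ℕ) (Ld : TL) (Xs Xt : List TL) (hw : 0 < w) (hD : D < S)
    (hg : good D D w (certE D 0 1 0 1 Ld Xs Xt) = true)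
    (hb' : 2 * bnd (certE D 0 1 0 1 Ld Xs Xt) < 2 ^ w)
    (hc : check w S D (certE D 0 1 0 1 Ld Xs Xt) 0 (S * S) = true)
    (a b : Fin 4 → ℝ) (ha : DT 1 a) (hb : DT 1 b) :
    0 ≤ ∑ σ : Equiv.Perm (Fin 4),
        sm D Ld (4 * uQ a (fun i => b (σ i)) 0) (4 * uQ a (fun i => b (σ i)) 1)
          (4 * uQ a (fun i => b (σ i)) 2) (4 * uQ a (fun i => b (σ i)) 3) 16
      + dotRR (Xs.map (fun l => sm D l (1 + a 0) (1 + a 1) (1 + a 2) (1 + a 3) 4))
          (Xt.map (fun l => sm D l (1 * (1 + b 0)) (1 * (1 + b 1)) (1 * (1 + b 2))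
            (1 * (1 + b 3)) 4)) := by
  have h := masterG w S D 0 1 0 1 Ld Xs Xt hw hD hg hb' hc _ _ 4 4 (sideT_one a ha.1 ha.2)
    (sideT_one b hb.1 hb.2)
  have e : ∀ (σ : Equiv.Perm (Fin 4)) (i : Fin 4),
      (1 + a i) * (1 + b (σ i)) = 4 * uQ a (fun i => b (σ i)) i := by
    intro σ i
    unfold uQ
    ring
  simp only [e] at h
  have e16 : (4 : ℝ) * 4 = 16 := by norm_num
  rw [e16] at h
  simp only [one_mul]
  exact h

theorem lB1_eq (z : ℝ) : T4M.lB1 z = ev1 z L1i / 1000000000000 := by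
  simp only [L1i, ev1, evL, T4M.lB1]
  push_cast
  ring

theorem lB2_eq (z : ℝ) : T4M.lB2 z = ev1 z L2i / 1000000000000 := by
  simp only [L2i, ev1, evL, T4M.lB2]
  push_cast
  ring

theorem lB3_eq (z : ℝ) : T4M.lB3 z = ev1 z L3i / 1000000000000 := by
  simp only [L3i, ev1, evL, T4M.lB3]
  push_cast
  ring

theorem lB4_eq (z : ℝ) : T4M.lB4 z = ev1 z L4i / 1000000000000 := by
  simp only [L4i, ev1, evL, T4M.lB4]
  push_cast
  ring

/-- the polynomial minorant of the kernel -/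
noncomputable def RT (u : Fin 4 → ℝ) : ℝ :=
  lbS5 (23 / 10) (7 / 10) u (T4M.lB1 (e1Q u - 1)) (T4M.lB2 (e1Q u - 1)) (T4M.lB3 (e1Q u - 1))
    (T4M.lB4 (e1Q u - 1))

theorem RT_le (a b : Fin 4 → ℝ) (ha : DT 1 a) (hb : DT 1 b) (hb1 : ∀ i, -1 < b i) :
    RT (uQ a b) ≤ KQ (ps5 (23 / 10) (7 / 10)) a b :=
  lbS5_le (23 / 10) (7 / 10) (by norm_num) (by norm_num) (by norm_num)
    (fun Z => T4M.lB1 (Z - 1)) (fun Z => T4M.lB2 (Z - 1)) (fun Z => T4M.lB3 (Z - 1))
    (fun Z => T4M.lB4 (Z - 1))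
    (fun Z h0 h4 => by simpa using T4M.lB1_le Z h0 h4) (fun Z h0 h4 => T4M.lB2_le Z h0 h4)
    (fun Z h0 h4 => T4M.lB3_le Z h0 h4) (fun Z h0 h4 => T4M.lB4_le Z h0 h4) a b ha hb hb1

theorem hLd (u : Fin 4 → ℝ) :
    sm 15 Ld (4 * u 0) (4 * u 1) (4 * u 2) (4 * u 3) 16 = 233466604682886512640000000000000 * RT u := by
  have h := sm_eq_lbS5E 300 17 15 Ld 4 16 (-233466604682886512640000000000000) 108951082185347039232 3735465674926184202240 259407338536540569600 435804328741388156928 L1i L2i L3i L4i pitLd u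
  push_cast at h
  rw [h]
  unfold RT
  rw [lB1_eq, lB2_eq, lB3_eq, lB4_eq]
  exact lbS5_of_lists 233466604682886512640000000000000 (23 / 10) (7 / 10) 1000000000000 1000000000000 1000000000000 1000000000000 _ _ _ _ _ L1i L2i L3i L4i
    (by norm_num) (by norm_num) (by norm_num) (by norm_num) (by norm_num) (by norm_num)
    (by norm_num) (by norm_num) (by norm_num) u

theorem hXps (a : Fin 4 → ℝ) :
    sm 15 Xps (1 + a 0) (1 + a 1) (1 + a 2) (1 + a 3) 4 = (-1811939328000000000) * ps5 (23 / 10) (7 / 10) a := by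
  have h := sm_eq_mulQ9 110 8 15 Xps 1 4 (0) (0) (-150994944000000000) (28940697600000000) (0) (-4404019200000000) (0) (0) (0) pitXps a
  push_cast at h
  simp only [one_mul] at h
  rw [h, ps5_eq_mulQ9]
  unfold mulQ9
  ring

theorem hXals (a : Fin 4 → ℝ) :
    sm 15 Xals (1 + a 0) (1 + a 1) (1 + a 2) (1 + a 3) 4 = (-724775731200000000000) * alQ a := by
  have h := sm_eq_mulQ9 110 8 15 Xals 1 4 (0) (-60397977600000000000) (0) (0) (0) (0) (0) (0) (0) pitXals a
  push_cast at h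
  simp only [one_mul] at h
  rw [h, alQ_eq_mulQ9]
  unfold mulQ9
  ring

theorem hXalt (a : Fin 4 → ℝ) :
    sm 15 Xalt (1 + a 0) (1 + a 1) (1 + a 2) (1 + a 3) 4 = 77309411328 * alQ a := by
  have h := sm_eq_mulQ9 110 8 15 Xalt 1 4 (0) (6442450944) (0) (0) (0) (0) (0) (0) (0) pitXalt a
  push_cast at h
  simp only [one_mul] at h
  rw [h, alQ_eq_mulQ9]
  unfold mulQ9
  ring

/-- the closure inequality (field `C4` of `PtG`) -/
theorem keyC (a b : Fin 4 → ℝ) (ha : DT 1 a) (hb : DT 1 b) (hb1 : ∀ i, -1 < b i) :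
    cTT b * ps5 (23 / 10) (7 / 10) a + cTT a * ps5 (23 / 10) (7 / 10) b
      ≤ avQ (KQ (ps5 (23 / 10) (7 / 10)) a) b :=
  keyG_asm3 (ps5 (23 / 10) (7 / 10)) RT 15 Ld Xps XcTT XcTT Xps Xals Xalt 4 16 1 4 4
    233466604682886512640000000000000 (-1811939328000000000) 3092376453120000 3092376453120000 (-1811939328000000000) (-724775731200000000000) 77309411328 (by norm_num) cTT cTT RT_le
    (fun a b ha hb => masterTT 168 16 15 Ld [Xps, XcTT, Xals] [XcTT, Xps, Xalt] (by norm_num)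
      (by norm_num) goodT bndT checkT a b ha hb)
    hLd hXps (fun b => by simp only [one_mul]; exact hXcTT15 b) (by norm_num)
    hXcTT15 (fun b => by simp only [one_mul]; exact hXps b) (by norm_num)
    hXals (fun b => by simp only [one_mul]; exact hXalt b) (by norm_num) a b ha hb hb1

end Vale.Agent.P154.TTH
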